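import Vale.Agent.P091.H409.Main
import Vale.Agent.P091.H409.Explicit

open MeasureTheory AddCircle

/-- Everywhere divergence past `u √(log u)`.
Part 1: `φ(u) = o(u √(log u · log log log u))`, `φ` nondecreasing. Part 2: the class `L √(log L)`.
Part 3: the general condition, along lacunary sequences of heights `e^(v k)`. Parts 4 and 5:
consequences for the Orlicz classes in which every function has a point of bounded partial
sums. -/
theorem Vale.Agent.Results.P091.DivergenceLogLogLog.result {T : ℝ} [Fact (0 < T)] :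
    (∀ φ : ℝ → ℝ, (∀ u, 0 ≤ u → 0 ≤ φ u) → MonotoneOn φ (Set.Ici 0) →
      Filter.Tendsto (fun u => φ u /
        (u * Real.sqrt (Real.log u * Real.log (Real.log (Real.log u)))))
        Filter.atTop (nhds 0) →
      ∃ f : AddCircle T → ℂ, Integrable f haarAddCircle ∧
        Integrable (fun x => φ ‖f x‖) haarAddCircle ∧
        ∀ x : AddCircle T, ¬ BddAbove (Set.range fun N : ℕ =>
          ‖∑ k ∈ Finset.Icc (-(N : ℤ)) (N : ℤ), fourierCoeff f k * fourier k x‖)) ∧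
    (∃ f : AddCircle T → ℂ, Integrable f haarAddCircle ∧
      Integrable (fun x => ‖f x‖ * Real.sqrt (Real.log (2 + ‖f x‖))) haarAddCircle ∧
      ∀ x : AddCircle T, ¬ BddAbove (Set.range fun N : ℕ =>
        ‖∑ k ∈ Finset.Icc (-(N : ℤ)) (N : ℤ), fourierCoeff f k * fourier k x‖)) ∧
    (∀ φ : ℝ → ℝ, (∀ u, 0 ≤ u → 0 ≤ φ u) → MonotoneOn φ (Set.Ici 0) →
      (∀ η : ℝ, 0 < η → ∀ M : ℕ, ∃ K : ℕ, M ≤ K ∧ ∃ v lam : ℕ → ℝ, (K : ℝ) ^ 3 ≤ v 0 ∧
        (∀ k, 4 * v k ≤ v (k + 1)) ∧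
        (∀ k, k < K → ∀ u : ℝ, 1 ≤ u → Real.log u ≤ v k → φ u ≤ lam k * u) ∧
        ∑ k ∈ Finset.range K, lam k / Real.sqrt (v k) ≤ η * (K * Real.sqrt (Real.log K))) →
      ∃ f : AddCircle T → ℂ, Integrable f haarAddCircle ∧
        Integrable (fun x => φ ‖f x‖) haarAddCircle ∧
        ∀ x : AddCircle T, ¬ BddAbove (Set.range fun N : ℕ =>
          ‖∑ k ∈ Finset.Icc (-(N : ℤ)) (N : ℤ), fourierCoeff f k * fourier k x‖)) ∧
    (∀ φ : ℝ → ℝ, (∀ u, 0 ≤ u → 0 ≤ φ u) → MonotoneOn φ (Set.Ici 0) →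
      MonotoneOn (fun u => φ u / u) (Set.Ioi 0) →
      (∀ f : AddCircle T → ℂ, Integrable f haarAddCircle →
        Integrable (fun x => φ ‖f x‖) haarAddCircle →
        ∃ x : AddCircle T, BddAbove (Set.range fun N : ℕ =>
          ‖∑ k ∈ Finset.Icc (-(N : ℤ)) (N : ℤ), fourierCoeff f k * fourier k x‖)) →
      ∃ c : ℝ, 0 < c ∧ ∃ K₀ : ℕ, ∀ K : ℕ, K₀ ≤ K → ∀ v : ℕ → ℝ, (K : ℝ) ^ 3 ≤ v 0 →
        (∀ k, 4 * v k ≤ v (k + 1)) →
        c * (K * Real.sqrt (Real.log K)) ≤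
          ∑ k ∈ Finset.range K, φ (Real.exp (v k)) / (Real.exp (v k) * Real.sqrt (v k))) ∧
    (∀ φ : ℝ → ℝ, (∀ u, 0 ≤ u → 0 ≤ φ u) → MonotoneOn φ (Set.Ici 0) →
      MonotoneOn (fun u => φ u / u) (Set.Ioi 0) →
      (∀ f : AddCircle T → ℂ, Integrable f haarAddCircle →
        Integrable (fun x => φ ‖f x‖) haarAddCircle →
        ∃ x : AddCircle T, BddAbove (Set.range fun N : ℕ =>
          ‖∑ k ∈ Finset.Icc (-(N : ℤ)) (N : ℤ), fourierCoeff f k * fourier k x‖)) →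
      ∃ c : ℝ, 0 < c ∧ ∀ᶠ y in Filter.atTop, ∃ u : ℝ, y ≤ u ∧ u ≤ Real.exp y ∧
        c * (u * Real.sqrt (Real.log u * Real.log (Real.log (Real.log u)))) ≤ φ u) :=
  ⟨Vale.Agent.P091.H203.divergence_little_o3 (Vale.Agent.P091.H409.mainLemma3 T),
    Vale.Agent.P091.H409.divergence_sqrt_log (Vale.Agent.P091.H409.mainLemma3 T),
    Vale.Agent.P091.H203.divergence_lac (Vale.Agent.P091.H409.mainLemma3 T),
    Vale.Agent.P091.H203.orlicz_mean (Vale.Agent.P091.H409.mainLemma3 T),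
    Vale.Agent.P091.H203.orlicz_window (Vale.Agent.P091.H409.mainLemma3 T)⟩
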