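import Vale.Agent.P091.H74.Final

open MeasureTheory AddCircle Filter Topology

/-- **Almost everywhere convergence of Fourier series in `L log L`.**
On every circle `AddCircle T` (normalized Haar measure): part 1, for every measurable `f` with
`∫ |f| log (2 + |f|) < ∞` the symmetric partial sums converge to `f` almost everywhere; part 2,
the weak type estimate for the Carleson maximal function on `L log L` (`a` may be the Luxemburg
norm of `f`). -/
theorem Vale.Agent.Results.P091.LLogL.result (T : ℝ) [Fact (0 < T)] :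
    (∀ f : AddCircle T → ℂ, AEStronglyMeasurable f haarAddCircle →
      Integrable (fun x => ‖f x‖ * Real.log (2 + ‖f x‖)) haarAddCircle →
      ∀ᵐ x ∂haarAddCircle, Tendsto (fun N : ℕ =>
        ∑ k ∈ Finset.Icc (-(N : ℤ)) (N : ℤ), fourierCoeff f k * fourier k x)
        atTop (𝓝 (f x))) ∧
    ∃ C : ℝ, 0 < C ∧ ∀ (f : AddCircle T → ℂ) (a : ℝ),
      AEStronglyMeasurable f haarAddCircle → 0 < a →
      Integrable (fun x => ‖f x‖ / a * Real.log (2 + ‖f x‖ / a)) haarAddCircle →
      ∫ x, ‖f x‖ / a * Real.log (2 + ‖f x‖ / a) ∂haarAddCircle ≤ 1 →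
      ∀ lam : ℝ, 0 < lam →
        haarAddCircle {x : AddCircle T | ∃ N : ℕ, lam <
          ‖∑ k ∈ Finset.Icc (-(N : ℤ)) (N : ℤ), fourierCoeff f k * fourier k x‖} ≤
        ENNReal.ofReal (C * a / lam) :=
  Vale.Agent.P091.H34.final_of Vale.Agent.P091.H74.pgrid T
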